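import Mathlib
import Vale.Agent.P279.Generic

open MvPolynomial

namespace Vale.Agent.Results.P279.Nagata

/-- The complex projective plane. -/
abbrev P2 : Type := Projectivization ℂ (Fin 3 → ℂ)

/-- `U_r`: the `r`-tuples of pairwise distinct points of the plane. -/
def U (r : ℕ) : Set (Fin r → P2) := {p | Function.Injective p}

/-- A polynomial in the homogeneous coordinates `x_{i,0}, x_{i,1}, x_{i,2}` of `r` points is
multihomogeneous if, for every `i`, it is homogeneous in the three coordinates of point `i`. -/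
def IsMultihomogeneous {r : ℕ} (g : MvPolynomial (Fin r × Fin 3) ℂ) : Prop :=
  ∀ i : Fin r, ∃ n : ℕ,
    IsWeightedHomogeneous (fun kj : Fin r × Fin 3 => if kj.1 = i then 1 else 0) g n

/-- `Z` is a Zariski-closed subset of `U_r`: the set of points of `U_r` at which all members of
some family of multihomogeneous polynomials vanish. -/
def IsZariskiClosedInU (r : ℕ) (Z : Set (Fin r → P2)) : Prop :=
  ∃ S : Set (MvPolynomial (Fin r × Fin 3) ℂ), (∀ g ∈ S, IsMultihomogeneous g) ∧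
    Z = {p | p ∈ U r ∧ ∀ g ∈ S, eval (fun kj : Fin r × Fin 3 => (p kj.1).rep kj.2) g = 0}

/-- The multiplicity at `p` of the curve `F = 0`: the least order of a partial derivative of `F`
that does not vanish at (homogeneous coordinates of) `p`. -/
noncomputable def mult (F : MvPolynomial (Fin 3) ℂ) (p : P2) : ℕ :=
  sInf {n : ℕ | ∃ l : List (Fin 3), l.length = n ∧
    eval p.rep (l.foldr (fun j G => pderiv j G) F) ≠ 0}

theorem result (r : ℕ) (hr : 10 ≤ r) :
    ∃ 𝒵 : Set (Set (Fin r → P2)), 𝒵.Countable ∧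
      (∀ Z ∈ 𝒵, IsZariskiClosedInU r Z ∧ Z ≠ U r) ∧
      ∀ p ∈ U r, p ∉ Set.sUnion 𝒵 →
        ∀ (d : ℕ) (F : MvPolynomial (Fin 3) ℂ), 1 ≤ d → F ≠ 0 → F.IsHomogeneous d →
          ∀ m : Fin r → ℕ, (∀ i, m i ≤ mult F (p i)) →
            (∑ i, (m i : ℝ)) < d * Real.sqrt r := by
  have core := fun q : {q : ℕ × (Fin r → ℕ) //
      1 ≤ q.1 ∧ (q.1 : ℝ) * Real.sqrt r ≤ ∑ i, (q.2 i : ℝ)} =>
    Vale.Agent.P279.nagata_core hr q.2.1 q.1.2 q.2.2
  choose Δ hΔ0 hΔh hΔ using core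
  refine ⟨Set.range fun q => {p | p ∈ U r ∧
    eval (fun kj : Fin r × Fin 3 => (p kj.1).rep kj.2) (Δ q) = 0}, Set.countable_range _, ?_, ?_⟩
  · rintro _ ⟨q, rfl⟩
    refine ⟨⟨{Δ q}, by rintro g rfl; exact hΔh q, by simp⟩, fun h => ?_⟩
    obtain ⟨v, hv, hv0, hv1⟩ := Vale.Agent.P279.exists_good_vectors (hΔ0 q)
    have hne : ∀ i, v i ≠ 0 := fun i h => hv0 i (congrFun h 0)
    have hU : (fun i => Projectivization.mk ℂ (v i) (hne i)) ∈ U r := by
      intro i j hij
      by_contra hc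
      obtain ⟨a, ha⟩ := (Projectivization.mk_eq_mk_iff' ℂ _ _ _ _).mp hij
      apply hv1 i j hc
      rw [← ha]
      simp only [Pi.smul_apply, smul_eq_mul]
      ring
    have h1 := (h.ge hU).2
    choose c hc using fun i => Projectivization.exists_smul_eq_mk_rep ℂ (v i) (hne i)
    choose n hn using hΔh q
    have h2 := Vale.Agent.P279.eval_scale n hn (fun i => (c i : ℂ)) v
    have h3 : (fun kj : Fin r × Fin 3 => (Projectivization.mk ℂ (v kj.1) (hne kj.1)).rep kj.2)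
        = fun kj : Fin r × Fin 3 => (c kj.1 : ℂ) * v kj.1 kj.2 := by
      funext kj
      rw [← hc]
      rfl
    rw [h3, h2] at h1
    exact mul_ne_zero (Finset.prod_ne_zero_iff.mpr fun i _ => pow_ne_zero _ (c i).ne_zero) hv h1
  · intro p hp hZ d F hd hF0 hF m hm
    by_contra hlt
    let q : {q : ℕ × (Fin r → ℕ) // 1 ≤ q.1 ∧ (q.1 : ℝ) * Real.sqrt r ≤ ∑ i, (q.2 i : ℝ)} :=
      ⟨(d, m), hd, not_lt.mp hlt⟩
    refine hF0 (hΔ q (fun i => (p i).rep) (fun h => hZ ⟨_, ⟨q, rfl⟩, hp, h⟩) F hF fun i l hl => ?_)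
    by_contra hne
    exact Nat.notMem_of_lt_sInf (lt_of_lt_of_le hl (hm i)) ⟨l, rfl, hne⟩

end Vale.Agent.Results.P279.Nagata
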